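import Vale.Agent.Lib.P235.GLemmas

/-!
# P235: the distance to the apex set
-/

open Finset

namespace Vale.Agent.Lib.P235

variable {V : Type*} [DecidableEq V] [MetricSpace V]

theorem rad_nonneg (A : Finset V) (hA : A.Nonempty) (u : V) : 0 ≤ rad A hA u :=
  Finset.le_inf' _ _ (fun _ _ => dist_nonneg)

theorem rad_le (A : Finset V) (hA : A.Nonempty) (u a : V) (ha : a ∈ A) :
    rad A hA u ≤ dist u a :=
  Finset.inf'_le (fun a => dist u a) ha

theorem exists_rad_eq (A : Finset V) (hA : A.Nonempty) (u : V) :
    ∃ a ∈ A, rad A hA u = dist u a :=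
  Finset.exists_mem_eq_inf' hA (fun a => dist u a)

theorem rad_le_add (A : Finset V) (hA : A.Nonempty) (u v : V) :
    rad A hA u ≤ dist u v + rad A hA v := by
  obtain ⟨a, ha, hav⟩ := exists_rad_eq A hA v
  have h1 := rad_le A hA u a ha
  have h2 := dist_triangle u v a
  linarith

theorem rad_lip (A : Finset V) (hA : A.Nonempty) (u v : V) :
    |rad A hA u - rad A hA v| ≤ dist u v := by
  have h1 := rad_le_add A hA u v
  have h2 := rad_le_add A hA v u
  rw [dist_comm v u] at h2
  rw [abs_le]
  constructor <;> linarith

theorem ell_nonneg (A : Finset V) (hA : A.Nonempty) (par : V → V) (x : V) :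
    0 ≤ ell A hA par x := by
  unfold ell
  split_ifs
  · exact rad_nonneg A hA x
  · exact dist_nonneg

theorem ell_eq_dist (A : Finset V) (hA : A.Nonempty) (par : V → V) (x : V) (hx : par x ≠ x) :
    ell A hA par x = dist x (par x) := by
  simp [ell, hx]

theorem ell_dist (A : Finset V) (hA : A.Nonempty) (par : V → V) (x : V) (hx : par x ≠ x) :
    dist x (par x) ≤ ell A hA par x :=
  (ell_eq_dist A hA par x hx).ge

theorem rad_le_depf (A : Finset V) (hA : A.Nonempty) (par : V → V) (h : V → ℕ)
    (hpar : ∀ x, par x ≠ x → h (par x) < h x) (x : V) :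
    rad A hA x ≤ depf (ell A hA par) par h hpar x := by
  have key : ∀ n : ℕ, ∀ x : V, h x ≤ n → rad A hA x ≤ depf (ell A hA par) par h hpar x := by
    intro n
    induction n with
    | zero =>
      intro x hx
      have hroot : par x = x := by
        by_contra hne
        have := hpar x hne
        omega
      rw [depf_root _ _ _ _ _ hroot]
      simp [ell, hroot]
    | succ n ih =>
      intro x hx
      by_cases hroot : par x = x
      · rw [depf_root _ _ _ _ _ hroot]
        simp [ell, hroot]
      · rw [depf_step _ _ _ _ _ hroot, ell_eq_dist A hA par x hroot]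
        have h1 := ih (par x) (by have := hpar x hroot; omega)
        have h2 := rad_le_add A hA x (par x)
        linarith
  exact key (h x) x le_rfl

theorem dist_le_two_rad_add (A : Finset V) (hA : A.Nonempty) (u v : V) :
    dist u v ≤ 2 * rad A hA u + ∑ a ∈ A, |dist u a - dist v a| := by
  obtain ⟨a, ha, hau⟩ := exists_rad_eq A hA u
  have h1 : |dist u a - dist v a| ≤ ∑ a ∈ A, |dist u a - dist v a| :=
    Finset.single_le_sum (f := fun a => |dist u a - dist v a|) (fun a _ => abs_nonneg _) ha
  have h2 := dist_triangle u a v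
  rw [dist_comm a v] at h2
  have h3 := neg_abs_le (dist u a - dist v a)
  linarith

end Vale.Agent.Lib.P235
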