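import Mathlib

/-!
# P235: walks in a metric space
-/

namespace Vale.Agent.Lib.P235

variable {V : Type*} [MetricSpace V]

theorem walk_len_ge (G : SimpleGraph V) {u v : V} (p : G.Walk u v) :
    dist u v ≤ (p.darts.map fun e => dist e.fst e.snd).sum := by
  induction p with
  | nil => simp
  | @cons a b c hadj p ih =>
    simp only [SimpleGraph.Walk.darts_cons, List.map_cons, List.sum_cons]
    have := dist_triangle a b c
    linarith

theorem walk_len_ge_through (G : SimpleGraph V) {u v : V} (p : G.Walk u v) (a : V)
    (ha : a ∈ p.support) :
    dist u a + dist a v ≤ (p.darts.map fun e => dist e.fst e.snd).sum := by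
  induction p with
  | nil =>
    simp only [SimpleGraph.Walk.support_nil, List.mem_singleton] at ha
    subst ha
    simp
  | @cons x y z hadj p ih =>
    simp only [SimpleGraph.Walk.darts_cons, List.map_cons, List.sum_cons]
    simp only [SimpleGraph.Walk.support_cons, List.mem_cons] at ha
    rcases ha with rfl | ha
    · have h1 := walk_len_ge G p
      have h2 := dist_triangle a y z
      simp only [dist_self, zero_add]
      linarith
    · have h1 := ih ha
      have h2 := dist_triangle x y a
      linarith

theorem walk_lip (G : SimpleGraph V) (E : V → V → ℝ) (C : ℝ) (S : Set V)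
    (hE0 : ∀ x, E x x = 0) (hEtri : ∀ x y z, E x z ≤ E x y + E y z)
    (hEstep : ∀ x y, x ∈ S → y ∈ S → G.Adj x y → E x y ≤ C * dist x y)
    {u v : V} (p : G.Walk u v) (hp : ∀ x ∈ p.support, x ∈ S) :
    E u v ≤ C * (p.darts.map fun e => dist e.fst e.snd).sum := by
  induction p with
  | nil => simp [hE0]
  | @cons x y z hadj p ih =>
    simp only [SimpleGraph.Walk.darts_cons, List.map_cons, List.sum_cons]
    have hx : x ∈ S := hp x (by simp)
    have hy : y ∈ S := hp y (by simp)
    have h1 := ih (fun w hw => hp w (by simp [hw]))
    have h2 := hEstep x y hx hy hadj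
    have h3 := hEtri x y z
    rw [mul_add]
    linarith

end Vale.Agent.Lib.P235
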