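import Vale.Agent.Lib.P235.GLemmas
import Vale.Agent.Lib.P235.Walks
import Vale.Agent.Lib.P235.Rad

/-!
# P235: the tree coordinates are `4`-Lipschitz
-/

open Finset

namespace Vale.Agent.Lib.P235

variable {V : Type*} [Fintype V] [DecidableEq V] [MetricSpace V]

/-- The mass of the tree coordinates of `u` is at most twice the distance from `u` to the apex
set. -/
theorem fco_upper_norm (A : Finset V) (hA : A.Nonempty) (par : V → V) (h : V → ℕ)
    (hpar : ∀ x, par x ≠ x → h (par x) < h x) (u : V) :
    ∑ z, |fco A hA par h hpar u z| ≤ 2 * rad A hA u := by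
  have hr := rad_nonneg A hA u
  unfold fco
  by_cases hu : u ∈ A
  · rw [if_pos hu]
    simp only [Pi.zero_apply, abs_zero, Finset.sum_const_zero]
    linarith
  · rw [if_neg hu]
    exact gfun_norm_le _ par h hpar (ell_nonneg A hA par) u _ (by linarith)

omit [MetricSpace V] in
/-- The mass of a vector supported at one point. -/
theorem fco_upper_single (x : V) (m : ℝ) : ∑ z, |(Pi.single x m : V → ℝ) z| = |m| := by
  rw [Finset.sum_eq_single x]
  · rw [Pi.single_eq_same]
  · intro b _ hb
    rw [Pi.single_eq_of_ne hb, abs_zero]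
  · intro hx
    exact absurd (Finset.mem_univ x) hx

/-- The step bound along a parent edge outside the apex set. -/
theorem fco_upper_step (A : Finset V) (hA : A.Nonempty) (par : V → V) (h : V → ℕ)
    (hpar : ∀ x, par x ≠ x → h (par x) < h x) (x : V) (hx : x ∉ A) (hy : par x ∉ A)
    (hne : par x ≠ x) :
    ∑ z, |fco A hA par h hpar x z - fco A hA par h hpar (par x) z| ≤ 4 * dist x (par x) := by
  have hfx : fco A hA par h hpar x =
      Pi.single x (min (2 * rad A hA x) (ell A hA par x)) +
        gfun (ell A hA par) par h hpar (par x) (max (2 * rad A hA x - ell A hA par x) 0) := by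
    unfold fco
    rw [if_neg hx, gfun_step _ par h hpar x _ hne]
  have hfy : fco A hA par h hpar (par x) =
      gfun (ell A hA par) par h hpar (par x) (2 * rad A hA (par x)) := by
    unfold fco
    rw [if_neg hy]
  rw [hfx, hfy, ell_eq_dist A hA par x hne]
  have hlx0 : 0 ≤ dist x (par x) := dist_nonneg
  have hr0 := rad_nonneg A hA x
  have hr'0 := rad_nonneg A hA (par x)
  have hrr := abs_le.mp (rad_lip A hA x (par x))
  have hlip := gfun_lip (ell A hA par) par h hpar (par x)
    (max (2 * rad A hA x - dist x (par x)) 0) (2 * rad A hA (par x))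
  have h1 : ∑ z, |(Pi.single x (min (2 * rad A hA x) (dist x (par x))) +
        gfun (ell A hA par) par h hpar (par x) (max (2 * rad A hA x - dist x (par x)) 0) :
          V → ℝ) z -
        gfun (ell A hA par) par h hpar (par x) (2 * rad A hA (par x)) z|
      ≤ |min (2 * rad A hA x) (dist x (par x))| +
        |max (2 * rad A hA x - dist x (par x)) 0 - 2 * rad A hA (par x)| := by
    have h2 : ∑ z, |(Pi.single x (min (2 * rad A hA x) (dist x (par x))) +
        gfun (ell A hA par) par h hpar (par x) (max (2 * rad A hA x - dist x (par x)) 0) :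
          V → ℝ) z -
        gfun (ell A hA par) par h hpar (par x) (2 * rad A hA (par x)) z|
        ≤ ∑ z, (|(Pi.single x (min (2 * rad A hA x) (dist x (par x))) : V → ℝ) z| +
          |gfun (ell A hA par) par h hpar (par x) (max (2 * rad A hA x - dist x (par x)) 0) z -
            gfun (ell A hA par) par h hpar (par x) (2 * rad A hA (par x)) z|) := by
      apply Finset.sum_le_sum
      intro z _
      rw [Pi.add_apply, add_sub_assoc]
      exact abs_add_le _ _
    rw [Finset.sum_add_distrib, fco_upper_single] at h2
    linarith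
  refine h1.trans ?_
  rcases le_total (2 * rad A hA x) (dist x (par x)) with hc | hc
  · rw [min_eq_left hc, max_eq_right (by linarith)]
    have e1 : |2 * rad A hA x| ≤ dist x (par x) := abs_le.mpr ⟨by linarith, by linarith⟩
    have e2 : |0 - 2 * rad A hA (par x)| ≤ 3 * dist x (par x) :=
      abs_le.mpr ⟨by linarith [hrr.1, hrr.2], by linarith [hrr.1, hrr.2]⟩
    linarith
  · rw [min_eq_right hc, max_eq_left (by linarith)]
    have e1 : |dist x (par x)| ≤ dist x (par x) := abs_le.mpr ⟨by linarith, by linarith⟩
    have e2 : |2 * rad A hA x - dist x (par x) - 2 * rad A hA (par x)| ≤ 3 * dist x (par x) :=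
      abs_le.mpr ⟨by linarith [hrr.1, hrr.2], by linarith [hrr.1, hrr.2]⟩
    linarith

theorem fco_upper (G : SimpleGraph V)
    (hgeo : ∀ u v : V, ∃ p : G.Walk u v,
      (p.darts.map fun e => dist e.fst e.snd).sum = dist u v)
    (A : Finset V) (hA : A.Nonempty) (par : V → V) (h : V → ℕ)
    (hpar : ∀ x, par x ≠ x → h (par x) < h x)
    (hP3 : ∀ x y, x ∉ A → y ∉ A → G.Adj x y → y = par x ∨ x = par y)
    (u v : V) :
    ∑ z, |fco A hA par h hpar u z - fco A hA par h hpar v z| ≤ 4 * dist u v := by
  have hN := fco_upper_norm A hA par h hpar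
  have hE0 : ∀ x : V, ∑ z, |fco A hA par h hpar x z - fco A hA par h hpar x z| = 0 := by
    intro x
    simp
  have hEtri : ∀ x y w : V, ∑ z, |fco A hA par h hpar x z - fco A hA par h hpar w z| ≤
      ∑ z, |fco A hA par h hpar x z - fco A hA par h hpar y z| +
        ∑ z, |fco A hA par h hpar y z - fco A hA par h hpar w z| := by
    intro x y w
    rw [← Finset.sum_add_distrib]
    exact Finset.sum_le_sum fun z _ => abs_sub_le _ _ _
  have hEsymm : ∀ x y : V, ∑ z, |fco A hA par h hpar x z - fco A hA par h hpar y z| =
      ∑ z, |fco A hA par h hpar y z - fco A hA par h hpar x z| :=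
    fun x y => Finset.sum_congr rfl fun z _ => abs_sub_comm _ _
  have hEN : ∀ x y : V, ∑ z, |fco A hA par h hpar x z - fco A hA par h hpar y z| ≤
      2 * rad A hA x + 2 * rad A hA y := by
    intro x y
    have h1 : ∑ z, |fco A hA par h hpar x z - fco A hA par h hpar y z| ≤
        ∑ z, (|fco A hA par h hpar x z| + |fco A hA par h hpar y z|) :=
      Finset.sum_le_sum fun z _ => abs_sub _ _
    rw [Finset.sum_add_distrib] at h1
    linarith [hN x, hN y]
  have hEstep : ∀ x y : V, x ∈ {x : V | x ∉ A} → y ∈ {x : V | x ∉ A} → G.Adj x y →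
      ∑ z, |fco A hA par h hpar x z - fco A hA par h hpar y z| ≤ 4 * dist x y := by
    intro x y hx hy hadj
    rcases hP3 x y hx hy hadj with hyx | hxy
    · subst hyx
      exact fco_upper_step A hA par h hpar x hx hy hadj.ne'
    · subst hxy
      rw [hEsymm, dist_comm]
      exact fco_upper_step A hA par h hpar y hy hx hadj.ne
  have hd : 0 ≤ dist u v := dist_nonneg
  by_cases hu : u ∈ A
  · have h1 := hEN u v
    have h2 : rad A hA u ≤ dist u u := rad_le A hA u u hu
    have h3 : rad A hA v ≤ dist v u := rad_le A hA v u hu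
    rw [dist_self] at h2
    rw [dist_comm] at h3
    linarith
  · by_cases hv : v ∈ A
    · have h1 := hEN u v
      have h2 : rad A hA v ≤ dist v v := rad_le A hA v v hv
      have h3 : rad A hA u ≤ dist u v := rad_le A hA u v hv
      rw [dist_self] at h2
      linarith
    · obtain ⟨p, hp⟩ := hgeo u v
      by_cases hex : ∃ a ∈ p.support, a ∈ A
      · obtain ⟨a, hap, haA⟩ := hex
        have h1 := hEN u v
        have h2 := walk_len_ge_through G p a hap
        rw [hp] at h2
        have h3 : rad A hA u ≤ dist u a := rad_le A hA u a haA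
        have h4 : rad A hA v ≤ dist v a := rad_le A hA v a haA
        rw [dist_comm v a] at h4
        linarith
      · have h1 := walk_lip G
          (fun x y => ∑ z, |fco A hA par h hpar x z - fco A hA par h hpar y z|) 4
          {x : V | x ∉ A} hE0 hEtri hEstep p (fun x hx hxA => hex ⟨x, hx, hxA⟩)
        rw [hp] at h1
        exact h1

end Vale.Agent.Lib.P235
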