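import Vale.Agent.Lib.P235.Lower
import Vale.Agent.Lib.P235.Upper

/-!
# P235: the core two-sided estimate

For a nonempty apex set `A` and a rooting of the forest outside `A`, the map
`u ↦ (fco u, (dist u a)_{a ∈ A})` into `ℓ¹` has distortion at most `|A| + 4`.
-/

open Finset

namespace Vale.Agent.Lib.P235

variable {V : Type*} [Fintype V] [DecidableEq V] [MetricSpace V]

theorem core (G : SimpleGraph V)
    (hgeo : ∀ u v : V, ∃ p : G.Walk u v,
      (p.darts.map fun e => dist e.fst e.snd).sum = dist u v)
    (A : Finset V) (hA : A.Nonempty) (par : V → V) (h : V → ℕ)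
    (hpar : ∀ x, par x ≠ x → h (par x) < h x)
    (hP3 : ∀ x y, x ∉ A → y ∉ A → G.Adj x y → y = par x ∨ x = par y) (u v : V) :
    dist u v ≤ (∑ z, |fco A hA par h hpar u z - fco A hA par h hpar v z|) +
        ∑ a ∈ A, |dist u a - dist v a| ∧
      (∑ z, |fco A hA par h hpar u z - fco A hA par h hpar v z|) +
        ∑ a ∈ A, |dist u a - dist v a| ≤ (A.card + 4) * dist u v := by
  have hT0 : 0 ≤ ∑ z, |fco A hA par h hpar u z - fco A hA par h hpar v z| :=
    Finset.sum_nonneg (fun _ _ => abs_nonneg _)
  have hF0 : 0 ≤ ∑ a ∈ A, |dist u a - dist v a| :=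
    Finset.sum_nonneg (fun _ _ => abs_nonneg _)
  constructor
  · by_cases hu : u ∈ A
    · have h1 : dist u v ≤ ∑ a ∈ A, |dist u a - dist v a| := by
        calc dist u v = |dist u u - dist v u| := by simp [dist_comm]
          _ ≤ ∑ a ∈ A, |dist u a - dist v a| :=
            Finset.single_le_sum (f := fun a => |dist u a - dist v a|)
              (fun a _ => abs_nonneg _) hu
      linarith
    by_cases hv : v ∈ A
    · have h1 : dist u v ≤ ∑ a ∈ A, |dist u a - dist v a| := by
        calc dist u v = |dist u v - dist v v| := by simp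
          _ ≤ ∑ a ∈ A, |dist u a - dist v a| :=
            Finset.single_le_sum (f := fun a => |dist u a - dist v a|)
              (fun a _ => abs_nonneg _) hv
      linarith
    have hfu : fco A hA par h hpar u
        = gfun (ell A hA par) par h hpar u (2 * rad A hA u) := by simp [fco, hu]
    have hfv : fco A hA par h hpar v
        = gfun (ell A hA par) par h hpar v (2 * rad A hA v) := by simp [fco, hv]
    rw [hfu, hfv]
    have hru := rad_nonneg A hA u
    have hrv := rad_nonneg A hA v
    have h1 := dist_le_two_rad_add A hA u v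
    have h2 := dist_le_two_rad_add A hA v u
    have hsw : ∑ a ∈ A, |dist v a - dist u a| = ∑ a ∈ A, |dist u a - dist v a| :=
      Finset.sum_congr rfl (fun a _ => abs_sub_comm _ _)
    rw [hsw, dist_comm v u] at h2
    have hdu := rad_le_depf A hA par h hpar u
    have hdv := rad_le_depf A hA par h hpar v
    rcases lower_alt (ell A hA par) par h hpar (ell_nonneg A hA par) (ell_dist A hA par)
      u v (2 * rad A hA u) (2 * rad A hA v) (by linarith) (by linarith) with hc | hc | hc | hc
    · linarith
    · linarith
    · linarith
    · have m1 : rad A hA u ≤ min (2 * rad A hA u) (depf (ell A hA par) par h hpar u) :=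
        le_min (by linarith) hdu
      have m2 : rad A hA v ≤ min (2 * rad A hA v) (depf (ell A hA par) par h hpar v) :=
        le_min (by linarith) hdv
      rcases le_total (rad A hA u) (rad A hA v) with hle | hle <;> linarith
  · have hT := fco_upper G hgeo A hA par h hpar hP3 u v
    have hF : ∑ a ∈ A, |dist u a - dist v a| ≤ A.card * dist u v := by
      calc ∑ a ∈ A, |dist u a - dist v a| ≤ ∑ a ∈ A, dist u v :=
            Finset.sum_le_sum (fun a _ => abs_dist_sub_le u v a)
        _ = A.card * dist u v := by simp
    linarith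

end Vale.Agent.Lib.P235
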