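import Mathlib

/-!
# P235: forests with apices, definitions

A rooted forest on a finite vertex set `V` is given by parent pointers `par : V → V`
(roots are the fixed points) together with a height function `h : V → ℕ` that strictly
decreases along proper parent steps.  For a nonnegative edge-length function `ℓ : V → ℝ`
(`ℓ x` is the length of the step from `x` to its parent, or a virtual length for a root)
we define

* `gfun ℓ par h hpar x β : V → ℝ`: distribute the budget `β` along the chain
  `x, par x, par (par x), …`, putting `min β (ℓ x)` on `x` and passing `max (β - ℓ x) 0` on;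
* `depf ℓ par h hpar x`: the total length of the chain starting at `x`.
-/

open Finset

namespace Vale.Agent.Lib.P235

variable {V : Type*} [DecidableEq V]

/-- Distribute a budget `β` along the chain of ancestors of `x`. -/
noncomputable def gfun (ℓ : V → ℝ) (par : V → V) (h : V → ℕ)
    (hpar : ∀ x, par x ≠ x → h (par x) < h x) (x : V) (β : ℝ) : V → ℝ :=
  Pi.single x (min β (ℓ x)) +
    (if hx : par x = x then 0 else gfun ℓ par h hpar (par x) (max (β - ℓ x) 0))
termination_by h x
decreasing_by exact hpar x hx

/-- Total length of the chain of ancestors of `x`. -/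
noncomputable def depf (ℓ : V → ℝ) (par : V → V) (h : V → ℕ)
    (hpar : ∀ x, par x ≠ x → h (par x) < h x) (x : V) : ℝ :=
  ℓ x + (if hx : par x = x then 0 else depf ℓ par h hpar (par x))
termination_by h x
decreasing_by exact hpar x hx

theorem gfun_root (ℓ : V → ℝ) (par : V → V) (h : V → ℕ)
    (hpar : ∀ x, par x ≠ x → h (par x) < h x) (x : V) (β : ℝ) (hx : par x = x) :
    gfun ℓ par h hpar x β = Pi.single x (min β (ℓ x)) := by
  rw [gfun]
  simp [hx]

theorem gfun_step (ℓ : V → ℝ) (par : V → V) (h : V → ℕ)
    (hpar : ∀ x, par x ≠ x → h (par x) < h x) (x : V) (β : ℝ) (hx : par x ≠ x) :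
    gfun ℓ par h hpar x β =
      Pi.single x (min β (ℓ x)) + gfun ℓ par h hpar (par x) (max (β - ℓ x) 0) := by
  rw [gfun]
  simp [hx]

theorem depf_root (ℓ : V → ℝ) (par : V → V) (h : V → ℕ)
    (hpar : ∀ x, par x ≠ x → h (par x) < h x) (x : V) (hx : par x = x) :
    depf ℓ par h hpar x = ℓ x := by
  rw [depf]
  simp [hx]

theorem depf_step (ℓ : V → ℝ) (par : V → V) (h : V → ℕ)
    (hpar : ∀ x, par x ≠ x → h (par x) < h x) (x : V) (hx : par x ≠ x) :
    depf ℓ par h hpar x = ℓ x + depf ℓ par h hpar (par x) := by
  rw [depf]
  simp [hx]

/-- Distance from `u` to the nonempty finite set `A`. -/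
noncomputable def rad [MetricSpace V] (A : Finset V) (hA : A.Nonempty) (u : V) : ℝ :=
  A.inf' hA (fun a => dist u a)

/-- Edge lengths of the rooted forest: the distance to the parent, or, for a root, the
distance to the apex set. -/
noncomputable def ell [MetricSpace V] (A : Finset V) (hA : A.Nonempty) (par : V → V)
    (x : V) : ℝ :=
  if par x = x then rad A hA x else dist x (par x)

/-- The tree coordinates of a vertex: zero on the apex set, otherwise the budget
`2 * rad` distributed along the chain of ancestors. -/
noncomputable def fco [MetricSpace V] (A : Finset V) (hA : A.Nonempty) (par : V → V)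
    (h : V → ℕ) (hpar : ∀ x, par x ≠ x → h (par x) < h x) (u : V) : V → ℝ :=
  if u ∈ A then 0 else gfun (ell A hA par) par h hpar u (2 * rad A hA u)

end Vale.Agent.Lib.P235
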