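import Vale.Agent.Lib.P235.Defs

/-!
# P235: basic properties of the chain-budget function `gfun`
-/

open Finset

namespace Vale.Agent.Lib.P235

variable {V : Type*} [Fintype V] [DecidableEq V]

/-- Splitting a budget into the capped part and the remainder is `1`-Lipschitz in total. -/
lemma glemmas_real_lip (b b' L : ℝ) :
    |min b L - min b' L| + |max (b - L) 0 - max (b' - L) 0| ≤ |b - b'| := by
  rcases le_total b L with h1 | h1 <;> rcases le_total b' L with h2 | h2
  · rw [min_eq_left h1, min_eq_left h2, max_eq_right (by linarith), max_eq_right (by linarith)]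
    simp
  · rw [min_eq_left h1, min_eq_right h2, max_eq_right (by linarith), max_eq_left (by linarith),
      abs_of_nonpos (by linarith), abs_of_nonpos (by linarith), abs_of_nonpos (by linarith)]
    linarith
  · rw [min_eq_right h1, min_eq_left h2, max_eq_left (by linarith), max_eq_right (by linarith),
      abs_of_nonneg (by linarith), abs_of_nonneg (by linarith), abs_of_nonneg (by linarith)]
    linarith
  · rw [min_eq_right h1, min_eq_right h2, max_eq_left (by linarith), max_eq_left (by linarith)]
    have e : b - L - (b' - L) = b - b' := by ring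
    rw [e]
    simp

/-- The capped part plus the capped remainder is the budget capped by the total length. -/
lemma glemmas_real_sum (b L D : ℝ) (hD : 0 ≤ D) :
    min b L + min (max (b - L) 0) D = min b (L + D) := by
  rcases le_total b L with h1 | h1
  · rw [min_eq_left h1, max_eq_right (by linarith), min_eq_left hD, min_eq_left (by linarith)]
    ring
  · rw [min_eq_right h1, max_eq_left (by linarith)]
    rcases le_total (b - L) D with h2 | h2
    · rw [min_eq_left h2, min_eq_left (by linarith)]
      ring
    · rw [min_eq_right h2, min_eq_right (by linarith)]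

omit [Fintype V] in
/-- Absolute value of a difference of single-point functions. -/
lemma glemmas_abs_single (x : V) (a a' : ℝ) (z : V) :
    |(Pi.single x a : V → ℝ) z - (Pi.single x a' : V → ℝ) z|
      = (Pi.single x |a - a'| : V → ℝ) z := by
  by_cases hz : z = x
  · subst hz
    simp
  · simp [hz]

theorem gfun_nonneg (ℓ : V → ℝ) (par : V → V) (h : V → ℕ)
    (hpar : ∀ x, par x ≠ x → h (par x) < h x) (hℓ : ∀ x, 0 ≤ ℓ x)
    (x : V) (β : ℝ) (hβ : 0 ≤ β) (z : V) :
    0 ≤ gfun ℓ par h hpar x β z := by
  induction hn : h x using Nat.strong_induction_on generalizing x β with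
  | _ n ih =>
    have h1 : 0 ≤ (Pi.single x (min β (ℓ x)) : V → ℝ) z := by
      rw [Pi.single_apply]
      split_ifs
      · exact le_min hβ (hℓ x)
      · exact le_rfl
    by_cases hx : par x = x
    · rw [gfun_root ℓ par h hpar x β hx]
      exact h1
    · rw [gfun_step ℓ par h hpar x β hx, Pi.add_apply]
      have h2 := ih (h (par x)) (by rw [← hn]; exact hpar x hx) (par x) (max (β - ℓ x) 0)
        (le_max_right _ _) rfl
      linarith

theorem depf_nonneg (ℓ : V → ℝ) (par : V → V) (h : V → ℕ)
    (hpar : ∀ x, par x ≠ x → h (par x) < h x) (hℓ : ∀ x, 0 ≤ ℓ x) (x : V) :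
    0 ≤ depf ℓ par h hpar x := by
  induction hn : h x using Nat.strong_induction_on generalizing x with
  | _ n ih =>
    by_cases hx : par x = x
    · rw [depf_root ℓ par h hpar x hx]
      exact hℓ x
    · rw [depf_step ℓ par h hpar x hx]
      have h2 := ih (h (par x)) (by rw [← hn]; exact hpar x hx) (par x) rfl
      have h3 := hℓ x
      linarith

/-- The budget map is `1`-Lipschitz in the budget, in the `ℓ¹` norm. -/
theorem gfun_lip (ℓ : V → ℝ) (par : V → V) (h : V → ℕ)
    (hpar : ∀ x, par x ≠ x → h (par x) < h x) (x : V) (β β' : ℝ) :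
    ∑ z, |gfun ℓ par h hpar x β z - gfun ℓ par h hpar x β' z| ≤ |β - β'| := by
  induction hn : h x using Nat.strong_induction_on generalizing x β β' with
  | _ n ih =>
    have hreal := glemmas_real_lip β β' (ℓ x)
    by_cases hx : par x = x
    · rw [gfun_root ℓ par h hpar x β hx, gfun_root ℓ par h hpar x β' hx]
      simp only [glemmas_abs_single]
      rw [Fintype.sum_pi_single']
      have h0 := abs_nonneg (max (β - ℓ x) 0 - max (β' - ℓ x) 0)
      linarith
    · rw [gfun_step ℓ par h hpar x β hx, gfun_step ℓ par h hpar x β' hx]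
      have ih' := ih (h (par x)) (by rw [← hn]; exact hpar x hx) (par x) (max (β - ℓ x) 0)
        (max (β' - ℓ x) 0) rfl
      have hle : ∑ z, |((Pi.single x (min β (ℓ x)) : V → ℝ)
              + gfun ℓ par h hpar (par x) (max (β - ℓ x) 0)) z
            - ((Pi.single x (min β' (ℓ x)) : V → ℝ)
              + gfun ℓ par h hpar (par x) (max (β' - ℓ x) 0)) z|
          ≤ ∑ z, ((Pi.single x |min β (ℓ x) - min β' (ℓ x)| : V → ℝ) z
            + |gfun ℓ par h hpar (par x) (max (β - ℓ x) 0) z
              - gfun ℓ par h hpar (par x) (max (β' - ℓ x) 0) z|) := by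
        refine Finset.sum_le_sum (fun z _ => ?_)
        rw [← glemmas_abs_single x (min β (ℓ x)) (min β' (ℓ x)) z, Pi.add_apply, Pi.add_apply]
        have e : (Pi.single x (min β (ℓ x)) : V → ℝ) z
              + gfun ℓ par h hpar (par x) (max (β - ℓ x) 0) z
              - ((Pi.single x (min β' (ℓ x)) : V → ℝ) z
                + gfun ℓ par h hpar (par x) (max (β' - ℓ x) 0) z)
            = ((Pi.single x (min β (ℓ x)) : V → ℝ) z - (Pi.single x (min β' (ℓ x)) : V → ℝ) z)
              + (gfun ℓ par h hpar (par x) (max (β - ℓ x) 0) z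
                - gfun ℓ par h hpar (par x) (max (β' - ℓ x) 0) z) := by ring
        rw [e]
        exact abs_add_le _ _
      rw [Finset.sum_add_distrib, Fintype.sum_pi_single'] at hle
      linarith

/-- Total mass: the budget, capped by the total chain length. -/
theorem gfun_sum (ℓ : V → ℝ) (par : V → V) (h : V → ℕ)
    (hpar : ∀ x, par x ≠ x → h (par x) < h x) (hℓ : ∀ x, 0 ≤ ℓ x)
    (x : V) (β : ℝ) (hβ : 0 ≤ β) :
    ∑ z, gfun ℓ par h hpar x β z = min β (depf ℓ par h hpar x) := by
  induction hn : h x using Nat.strong_induction_on generalizing x β with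
  | _ n ih =>
    by_cases hx : par x = x
    · rw [gfun_root ℓ par h hpar x β hx, depf_root ℓ par h hpar x hx, Fintype.sum_pi_single']
    · rw [gfun_step ℓ par h hpar x β hx, depf_step ℓ par h hpar x hx]
      have ih' := ih (h (par x)) (by rw [← hn]; exact hpar x hx) (par x) (max (β - ℓ x) 0)
        (le_max_right _ _) rfl
      simp only [Pi.add_apply]
      rw [Finset.sum_add_distrib, Fintype.sum_pi_single', ih']
      exact glemmas_real_sum β (ℓ x) _ (depf_nonneg ℓ par h hpar hℓ (par x))

/-- The chain of `y` never visits a different vertex of at least the same height. -/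
theorem gfun_apply_eq_zero (ℓ : V → ℝ) (par : V → V) (h : V → ℕ)
    (hpar : ∀ x, par x ≠ x → h (par x) < h x) (x y : V) (hxy : x ≠ y) (hh : h y ≤ h x)
    (β : ℝ) :
    gfun ℓ par h hpar y β x = 0 := by
  induction hn : h y using Nat.strong_induction_on generalizing y β with
  | _ n ih =>
    have h1 : (Pi.single y (min β (ℓ y)) : V → ℝ) x = 0 := by
      rw [Pi.single_apply, if_neg hxy]
    by_cases hy : par y = y
    · rw [gfun_root ℓ par h hpar y β hy]
      exact h1
    · rw [gfun_step ℓ par h hpar y β hy, Pi.add_apply, h1, zero_add]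
      have hlt : h (par y) < h y := hpar y hy
      have hne : x ≠ par y := by
        intro hcon
        rw [← hcon] at hlt
        omega
      exact ih (h (par y)) (by rw [← hn]; exact hlt) (par y) hne (by omega)
        (max (β - ℓ y) 0) rfl

theorem gfun_norm_le (ℓ : V → ℝ) (par : V → V) (h : V → ℕ)
    (hpar : ∀ x, par x ≠ x → h (par x) < h x) (hℓ : ∀ x, 0 ≤ ℓ x)
    (x : V) (β : ℝ) (hβ : 0 ≤ β) :
    ∑ z, |gfun ℓ par h hpar x β z| ≤ β := by
  have habs : ∀ z, |gfun ℓ par h hpar x β z| = gfun ℓ par h hpar x β z :=
    fun z => abs_of_nonneg (gfun_nonneg ℓ par h hpar hℓ x β hβ z)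
  simp only [habs]
  rw [gfun_sum ℓ par h hpar hℓ x β hβ]
  exact min_le_left _ _

end Vale.Agent.Lib.P235
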