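import Vale.Agent.Lib.P235.GLemmas

/-!
# P235: the lower-bound alternative for two chains
-/

open Finset

namespace Vale.Agent.Lib.P235

variable {V : Type*} [Fintype V] [DecidableEq V] [MetricSpace V]

omit [MetricSpace V] in
/-- `ℓ¹` distance between a point mass at `x` and a nonnegative function vanishing at `x`. -/
theorem lower_aux_root (x : V) (m : ℝ) (hm : 0 ≤ m) (g : V → ℝ) (hg : ∀ z, 0 ≤ g z)
    (hgx : g x = 0) :
    ∑ z, |(Pi.single x m : V → ℝ) z - g z| = m + ∑ z, g z := by
  have hterm : ∀ z, |(Pi.single x m : V → ℝ) z - g z| = (Pi.single x m : V → ℝ) z + g z := by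
    intro z
    by_cases hz : z = x
    · subst hz
      simp [hgx, abs_of_nonneg hm]
    · rw [Pi.single_eq_of_ne hz, zero_sub, abs_neg, abs_of_nonneg (hg z), zero_add]
  rw [Finset.sum_congr rfl (fun z _ => hterm z), Finset.sum_add_distrib,
    Finset.sum_pi_single']
  simp

omit [MetricSpace V] in
/-- Splitting off a point mass at `x` when both other functions vanish at `x`. -/
theorem lower_aux_step (x : V) (m : ℝ) (hm : 0 ≤ m) (f g : V → ℝ) (hfx : f x = 0)
    (hgx : g x = 0) :
    ∑ z, |((Pi.single x m : V → ℝ) + f) z - g z| = m + ∑ z, |f z - g z| := by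
  have hterm : ∀ z, |((Pi.single x m : V → ℝ) + f) z - g z|
      = (Pi.single x m : V → ℝ) z + |f z - g z| := by
    intro z
    by_cases hz : z = x
    · subst hz
      simp [hfx, hgx, abs_of_nonneg hm]
    · rw [Pi.add_apply, Pi.single_eq_of_ne hz, zero_add, zero_add]
  rw [Finset.sum_congr rfl (fun z _ => hterm z), Finset.sum_add_distrib,
    Finset.sum_pi_single']
  simp

/-- The case `h y ≤ h x`, `x ≠ y` of `lower_alt`, with the induction hypothesis for the
parent of `x` as an assumption. -/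
theorem lower_alt_half (ℓ : V → ℝ) (par : V → V) (h : V → ℕ)
    (hpar : ∀ x, par x ≠ x → h (par x) < h x) (hℓ : ∀ x, 0 ≤ ℓ x)
    (hℓd : ∀ x, par x ≠ x → dist x (par x) ≤ ℓ x)
    (x y : V) (β γ : ℝ) (hβ : 0 ≤ β) (hγ : 0 ≤ γ) (hxy : x ≠ y) (hh : h y ≤ h x)
    (IH : par x ≠ x → ∀ β' : ℝ, 0 ≤ β' →
      (β' ≤ ∑ z, |gfun ℓ par h hpar (par x) β' z - gfun ℓ par h hpar y γ z| ∨
       γ ≤ ∑ z, |gfun ℓ par h hpar (par x) β' z - gfun ℓ par h hpar y γ z| ∨
       dist (par x) y ≤ ∑ z, |gfun ℓ par h hpar (par x) β' z - gfun ℓ par h hpar y γ z| ∨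
       min β' (depf ℓ par h hpar (par x)) + min γ (depf ℓ par h hpar y) ≤
         ∑ z, |gfun ℓ par h hpar (par x) β' z - gfun ℓ par h hpar y γ z|)) :
    β ≤ ∑ z, |gfun ℓ par h hpar x β z - gfun ℓ par h hpar y γ z| ∨
    γ ≤ ∑ z, |gfun ℓ par h hpar x β z - gfun ℓ par h hpar y γ z| ∨
    dist x y ≤ ∑ z, |gfun ℓ par h hpar x β z - gfun ℓ par h hpar y γ z| ∨
    min β (depf ℓ par h hpar x) + min γ (depf ℓ par h hpar y) ≤
      ∑ z, |gfun ℓ par h hpar x β z - gfun ℓ par h hpar y γ z| := by
  have hgyx : gfun ℓ par h hpar y γ x = 0 := gfun_apply_eq_zero ℓ par h hpar x y hxy hh γ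
  have hm : 0 ≤ min β (ℓ x) := le_min hβ (hℓ x)
  by_cases hx : par x = x
  · have hL : ∑ z, |gfun ℓ par h hpar x β z - gfun ℓ par h hpar y γ z|
        = min β (ℓ x) + ∑ z, gfun ℓ par h hpar y γ z := by
      rw [gfun_root ℓ par h hpar x β hx]
      exact lower_aux_root x _ hm _ (fun z => gfun_nonneg ℓ par h hpar hℓ y γ hγ z) hgyx
    right; right; right
    rw [hL, gfun_sum ℓ par h hpar hℓ y γ hγ, depf_root ℓ par h hpar x hx]
  · have hx' : x ≠ par x := fun e => hx e.symm
    have hgx'x : gfun ℓ par h hpar (par x) (max (β - ℓ x) 0) x = 0 :=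
      gfun_apply_eq_zero ℓ par h hpar x (par x) hx' (hpar x hx).le _
    have hL : ∑ z, |gfun ℓ par h hpar x β z - gfun ℓ par h hpar y γ z|
        = min β (ℓ x) + ∑ z, |gfun ℓ par h hpar (par x) (max (β - ℓ x) 0) z
            - gfun ℓ par h hpar y γ z| := by
      rw [gfun_step ℓ par h hpar x β hx]
      exact lower_aux_step x _ hm _ _ hgx'x hgyx
    have hL'nn : 0 ≤ ∑ z, |gfun ℓ par h hpar (par x) (max (β - ℓ x) 0) z
        - gfun ℓ par h hpar y γ z| :=
      Finset.sum_nonneg (fun z _ => abs_nonneg _)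
    rw [hL]
    by_cases hbl : β ≤ ℓ x
    · left
      rw [min_eq_left hbl]
      linarith
    · push Not at hbl
      have hb' : max (β - ℓ x) 0 = β - ℓ x := max_eq_left (by linarith)
      rw [hb'] at hL'nn ⊢
      rw [min_eq_right hbl.le]
      rcases IH hx (β - ℓ x) (by linarith) with h1 | h2 | h3 | h4
      · left
        linarith
      · right; left
        linarith [hℓ x]
      · right; right; left
        have htri := dist_triangle x (par x) y
        have hd := hℓd x hx
        linarith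
      · right; right; right
        have hd : depf ℓ par h hpar x = ℓ x + depf ℓ par h hpar (par x) :=
          depf_step ℓ par h hpar x hx
        have hmin : min β (depf ℓ par h hpar x)
            = ℓ x + min (β - ℓ x) (depf ℓ par h hpar (par x)) := by
          rw [hd, ← min_add_add_left]
          congr 1
          ring
        rw [hmin]
        linarith

/-- For two vertices `x, y` with budgets `β, γ ≥ 0`, the `ℓ¹` distance `Λ` between the two
budget vectors dominates `β`, or `γ`, or `dist x y`, or the sum of the two total masses. -/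
theorem lower_alt (ℓ : V → ℝ) (par : V → V) (h : V → ℕ)
    (hpar : ∀ x, par x ≠ x → h (par x) < h x) (hℓ : ∀ x, 0 ≤ ℓ x)
    (hℓd : ∀ x, par x ≠ x → dist x (par x) ≤ ℓ x)
    (x y : V) (β γ : ℝ) (hβ : 0 ≤ β) (hγ : 0 ≤ γ) :
    β ≤ ∑ z, |gfun ℓ par h hpar x β z - gfun ℓ par h hpar y γ z| ∨
    γ ≤ ∑ z, |gfun ℓ par h hpar x β z - gfun ℓ par h hpar y γ z| ∨
    dist x y ≤ ∑ z, |gfun ℓ par h hpar x β z - gfun ℓ par h hpar y γ z| ∨
    min β (depf ℓ par h hpar x) + min γ (depf ℓ par h hpar y) ≤
      ∑ z, |gfun ℓ par h hpar x β z - gfun ℓ par h hpar y γ z| := by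
  suffices H : ∀ n : ℕ, ∀ x y : V, ∀ β γ : ℝ, h x + h y = n → 0 ≤ β → 0 ≤ γ →
      (β ≤ ∑ z, |gfun ℓ par h hpar x β z - gfun ℓ par h hpar y γ z| ∨
       γ ≤ ∑ z, |gfun ℓ par h hpar x β z - gfun ℓ par h hpar y γ z| ∨
       dist x y ≤ ∑ z, |gfun ℓ par h hpar x β z - gfun ℓ par h hpar y γ z| ∨
       min β (depf ℓ par h hpar x) + min γ (depf ℓ par h hpar y) ≤
         ∑ z, |gfun ℓ par h hpar x β z - gfun ℓ par h hpar y γ z|) from
    H _ x y β γ rfl hβ hγ
  intro n
  induction n using Nat.strong_induction_on with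
  | _ n ih =>
    intro x y β γ hn hβ hγ
    by_cases hxy : x = y
    · right; right; left
      rw [hxy, dist_self]
      exact Finset.sum_nonneg (fun z _ => abs_nonneg _)
    · rcases le_total (h y) (h x) with hh | hh
      · exact lower_alt_half ℓ par h hpar hℓ hℓd x y β γ hβ hγ hxy hh
          (fun hx β' hβ' => ih (h (par x) + h y) (by have := hpar x hx; omega) (par x) y β' γ
            rfl hβ' hγ)
      · have hsw := lower_alt_half ℓ par h hpar hℓ hℓd y x γ β hγ hβ (Ne.symm hxy) hh
          (fun hy γ' hγ' => ih (h (par y) + h x) (by have := hpar y hy; omega) (par y) x γ' β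
            rfl hγ' hβ)
        have hL : ∑ z, |gfun ℓ par h hpar y γ z - gfun ℓ par h hpar x β z|
            = ∑ z, |gfun ℓ par h hpar x β z - gfun ℓ par h hpar y γ z| :=
          Finset.sum_congr rfl (fun z _ => abs_sub_comm _ _)
        rw [hL] at hsw
        rcases hsw with h1 | h2 | h3 | h4
        · right; left
          exact h1
        · left
          exact h2
        · right; right; left
          rw [dist_comm]
          exact h3
        · right; right; right
          rw [add_comm]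
          exact h4

end Vale.Agent.Lib.P235
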