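import Mathlib

/-!
# P235: parent pointers for a forest
-/

namespace Vale.Agent.Lib.P235

/-- In an acyclic graph, the distances of two adjacent vertices to a common reachable vertex
differ by exactly one. -/
theorem parAux_dist_step {W : Type*} (F : SimpleGraph W) (hF : F.IsAcyclic) {x y r : W}
    (hxy : F.Adj x y) (hx : F.Reachable x r) :
    F.dist y r + 1 = F.dist x r ∨ F.dist x r + 1 = F.dist y r := by
  classical
  have hy : F.Reachable y r := hxy.symm.reachable.trans hx
  obtain ⟨p, hp⟩ := hx.exists_walk_length_eq_dist
  obtain ⟨q, hq⟩ := hy.exists_walk_length_eq_dist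
  have hpp : p.IsPath := p.isPath_of_length_eq_dist hp
  have hqp : q.IsPath := q.isPath_of_length_eq_dist hq
  by_cases hmem : y ∈ p.support
  · left
    have h1 : (p.takeUntil y hmem).IsPath := hpp.takeUntil hmem
    have h2 : hxy.toWalk.IsPath := SimpleGraph.Walk.IsPath.of_adj hxy
    have heq := (hF.subsingleton_path x y).elim ⟨p.takeUntil y hmem, h1⟩ ⟨hxy.toWalk, h2⟩
    have hlen : (p.takeUntil y hmem).length = 1 := by
      have := congrArg (fun z : F.Path x y => z.1.length) heq
      simpa using this
    have hspec := congrArg SimpleGraph.Walk.length (p.take_spec hmem)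
    rw [SimpleGraph.Walk.length_append, hlen] at hspec
    have hle : F.dist y r ≤ (p.dropUntil y hmem).length := SimpleGraph.dist_le _
    have hle2 : F.dist x r ≤ (SimpleGraph.Walk.cons hxy q).length := SimpleGraph.dist_le _
    rw [SimpleGraph.Walk.length_cons] at hle2
    omega
  · right
    have h1 : (SimpleGraph.Walk.cons hxy.symm p).IsPath := by
      rw [SimpleGraph.Walk.cons_isPath_iff]
      exact ⟨hpp, hmem⟩
    have heq := (hF.subsingleton_path y r).elim ⟨SimpleGraph.Walk.cons hxy.symm p, h1⟩ ⟨q, hqp⟩
    have hlen := congrArg (fun z : F.Path y r => z.1.length) heq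
    simp only [SimpleGraph.Walk.length_cons] at hlen
    omega

/-- In an acyclic graph, a vertex has at most one neighbour that is closer to a given
reachable vertex. -/
theorem parAux_unique {W : Type*} (F : SimpleGraph W) (hF : F.IsAcyclic) {x y y' r : W}
    (hxy : F.Adj x y) (hxy' : F.Adj x y') (hx : F.Reachable x r)
    (h1 : F.dist y r + 1 = F.dist x r) (h2 : F.dist y' r + 1 = F.dist x r) : y = y' := by
  have hy : F.Reachable y r := hxy.symm.reachable.trans hx
  have hy' : F.Reachable y' r := hxy'.symm.reachable.trans hx
  obtain ⟨q, hq⟩ := hy.exists_walk_length_eq_dist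
  obtain ⟨q', hq'⟩ := hy'.exists_walk_length_eq_dist
  have hp1 : (SimpleGraph.Walk.cons hxy q).IsPath :=
    SimpleGraph.Walk.isPath_of_length_eq_dist _ (by rw [SimpleGraph.Walk.length_cons]; omega)
  have hp2 : (SimpleGraph.Walk.cons hxy' q').IsPath :=
    SimpleGraph.Walk.isPath_of_length_eq_dist _ (by rw [SimpleGraph.Walk.length_cons]; omega)
  have heq := (hF.subsingleton_path x r).elim ⟨_, hp1⟩ ⟨_, hp2⟩
  have hsnd := congrArg (fun z : F.Path x r => z.1.snd) heq
  simpa using hsnd

/-- Every acyclic graph can be rooted: there are parent pointers `par` (roots are the fixed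
points) and a height function `h` strictly decreasing along proper parent steps, such that
every edge joins a vertex to its parent. -/
theorem exists_parent {W : Type*} (F : SimpleGraph W) (hF : F.IsAcyclic) :
    ∃ (par : W → W) (h : W → ℕ), (∀ x, par x ≠ x → h (par x) < h x) ∧
      (∀ x y, F.Adj x y → y = par x ∨ x = par y) := by
  classical
  let r : W → W := fun x => (F.connectedComponentMk x).out
  have hr : ∀ x, F.Reachable x (r x) := fun x =>
    SimpleGraph.ConnectedComponent.exact (Quot.out_eq (F.connectedComponentMk x)).symm
  have hadj : ∀ x y, F.Adj x y → r x = r y := fun x y hxy => by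
    simp only [r]
    rw [SimpleGraph.ConnectedComponent.sound hxy.reachable]
  let par : W → W := fun x =>
    if hx : ∃ y, F.Adj x y ∧ F.dist y (r x) + 1 = F.dist x (r x) then Classical.choose hx else x
  refine ⟨par, fun x => F.dist x (r x), ?_, ?_⟩
  · intro x hne
    by_cases hx : ∃ y, F.Adj x y ∧ F.dist y (r x) + 1 = F.dist x (r x)
    · have hpx : par x = Classical.choose hx := dif_pos hx
      obtain ⟨ha, hd⟩ := Classical.choose_spec hx
      have hrr : r (par x) = r x := by rw [hpx]; exact (hadj x _ ha).symm
      change F.dist (par x) (r (par x)) < F.dist x (r x)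
      rw [hrr, hpx]
      omega
    · exact absurd (dif_neg hx) hne
  · intro x y hxy
    have key : ∀ a b, F.Adj a b → F.dist b (r a) + 1 = F.dist a (r a) → b = par a := by
      intro a b hab hd
      have hx : ∃ y, F.Adj a y ∧ F.dist y (r a) + 1 = F.dist a (r a) := ⟨b, hab, hd⟩
      have hpx : par a = Classical.choose hx := dif_pos hx
      obtain ⟨ha, hd'⟩ := Classical.choose_spec hx
      rw [hpx]
      exact parAux_unique F hF hab ha (hr a) hd hd'
    rcases parAux_dist_step F hF hxy (hr x) with h1 | h1
    · left
      exact key x y hxy h1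
    · right
      refine key y x hxy.symm ?_
      rw [← hadj x y hxy]
      exact h1

end Vale.Agent.Lib.P235
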