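import Vale.Agent.Lib.P235.Core
import Vale.Agent.Lib.P235.Parent

/-!
# P235: bounded feedback vertex sets, metric form

A finite metric space that is geodesic along a graph `G` (so it is the shortest-path metric
of `G` with edge lengths `dist`), where `G` becomes a forest after deleting a set `A` of at
most `k` vertices, embeds into a finite-dimensional `ℓ¹` with distortion at most `k + 5`.
-/

open Finset

namespace Vale.Agent.Lib.P235

theorem bounded_fvs_embedding {V : Type*} [Fintype V] [MetricSpace V] (G : SimpleGraph V)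
    (hgeo : ∀ u v : V, ∃ p : G.Walk u v,
      (p.darts.map fun e => dist e.fst e.snd).sum = dist u v)
    (A : Finset V) (hacyc : (G.induce {x | x ∉ A}).IsAcyclic) (k : ℕ) (hk : A.card ≤ k) :
    ∃ (m : ℕ) (f : V → Fin m → ℝ), ∀ u v : V,
      dist u v ≤ ∑ j, |f u j - f v j| ∧ ∑ j, |f u j - f v j| ≤ (k + 5) * dist u v := by
  classical
  rcases isEmpty_or_nonempty V with hV | ⟨⟨v0⟩⟩
  · exact ⟨0, fun u => isEmptyElim u, fun u => isEmptyElim u⟩
  obtain ⟨par', h', hpar', hP3'⟩ := exists_parent _ hacyc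
  let par : V → V := fun x => if hx : x ∉ A then (par' ⟨x, hx⟩ : V) else x
  let h : V → ℕ := fun x => if hx : x ∉ A then h' ⟨x, hx⟩ else 0
  have hpar : ∀ x, par x ≠ x → h (par x) < h x := by
    intro x hx
    by_cases hxA : x ∉ A
    · have e1 : par x = (par' ⟨x, hxA⟩ : V) := dif_pos hxA
      have hmem : (par' ⟨x, hxA⟩ : V) ∉ A := (par' ⟨x, hxA⟩).2
      have e2 : h x = h' ⟨x, hxA⟩ := dif_pos hxA
      have e3 : h (par x) = h' (par' ⟨x, hxA⟩) := by
        rw [e1]
        exact dif_pos hmem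
      rw [e3, e2]
      apply hpar'
      intro hcon
      apply hx
      rw [e1, hcon]
    · exfalso
      exact hx (dif_neg hxA)
  have hP3 : ∀ x y, x ∉ insert v0 A → y ∉ insert v0 A → G.Adj x y →
      y = par x ∨ x = par y := by
    intro x y hx hy hadj
    have hxA : x ∉ A := fun hh => hx (mem_insert_of_mem hh)
    have hyA : y ∉ A := fun hh => hy (mem_insert_of_mem hh)
    have hadj' : (G.induce {x | x ∉ A}).Adj ⟨x, hxA⟩ ⟨y, hyA⟩ := by
      simpa using hadj
    rcases hP3' ⟨x, hxA⟩ ⟨y, hyA⟩ hadj' with e | e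
    · left
      have e1 : par x = (par' ⟨x, hxA⟩ : V) := dif_pos hxA
      rw [e1, ← e]
    · right
      have e1 : par y = (par' ⟨y, hyA⟩ : V) := dif_pos hyA
      rw [e1, ← e]
  have hA' : (insert v0 A).Nonempty := insert_nonempty v0 A
  have hcore := core G hgeo (insert v0 A) hA' par h hpar hP3
  have hcard : ((insert v0 A).card : ℝ) ≤ k + 1 := by
    have h1 := card_insert_le v0 A
    have h2 : (insert v0 A).card ≤ k + 1 := by omega
    exact_mod_cast h2
  let F : V → (V ⊕ ↥(insert v0 A)) → ℝ := fun u =>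
    Sum.elim (fco (insert v0 A) hA' par h hpar u) (fun a => dist u (a : V))
  refine ⟨Fintype.card (V ⊕ ↥(insert v0 A)),
    fun u j => F u ((Fintype.equivFin (V ⊕ ↥(insert v0 A))).symm j), fun u v => ?_⟩
  have hsum : ∑ j, |F u ((Fintype.equivFin (V ⊕ ↥(insert v0 A))).symm j)
        - F v ((Fintype.equivFin (V ⊕ ↥(insert v0 A))).symm j)|
      = (∑ z, |fco (insert v0 A) hA' par h hpar u z - fco (insert v0 A) hA' par h hpar v z|)
        + ∑ a ∈ insert v0 A, |dist u a - dist v a| := by
    rw [Equiv.sum_comp (Fintype.equivFin (V ⊕ ↥(insert v0 A))).symm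
      (fun i => |F u i - F v i|)]
    rw [Fintype.sum_sum_type]
    simp only [F, Sum.elim_inl, Sum.elim_inr]
    congr 1
    exact Finset.sum_coe_sort (insert v0 A) (fun a => |dist u a - dist v a|)
  rw [hsum]
  obtain ⟨h1, h2⟩ := hcore u v
  refine ⟨h1, h2.trans ?_⟩
  have hd := dist_nonneg (x := u) (y := v)
  nlinarith

end Vale.Agent.Lib.P235
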