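import Vale.Agent.Lib.P235.Main

/-!
# P235: bounded feedback vertex sets, weighted-graph form
-/

open Finset

namespace Vale.Agent.Lib.P235

/-- The weighted length of a walk is nonnegative. -/
private lemma wt_nonneg {V : Type*} (G : SimpleGraph V) (w : Sym2 V → ℝ)
    (hw : ∀ e ∈ G.edgeSet, 0 < w e) {u v : V} (p : G.Walk u v) :
    0 ≤ (p.edges.map w).sum := by
  apply List.sum_nonneg
  intro x hx
  obtain ⟨e, he, rfl⟩ := List.mem_map.mp hx
  exact (hw e (p.edges_subset_edgeSet he)).le

/-- Removing the detours of a walk does not increase its weighted length. -/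
private lemma wt_bypass_le {V : Type*} [DecidableEq V] (G : SimpleGraph V) (w : Sym2 V → ℝ)
    (hw : ∀ e ∈ G.edgeSet, 0 < w e) {u v : V} (p : G.Walk u v) :
    (p.bypass.edges.map w).sum ≤ (p.edges.map w).sum := by
  apply List.Sublist.sum_le_sum (p.edges_bypass_sublist_edges.map w)
  intro x hx
  obtain ⟨e, he, rfl⟩ := List.mem_map.mp hx
  exact (hw e (p.edges_subset_edgeSet he)).le

/-- A walk between two distinct vertices has positive weighted length. -/
private lemma wt_pos {V : Type*} (G : SimpleGraph V) (w : Sym2 V → ℝ)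
    (hw : ∀ e ∈ G.edgeSet, 0 < w e) {u v : V} (p : G.Walk u v) (huv : u ≠ v) :
    0 < (p.edges.map w).sum := by
  cases p with
  | nil => exact absurd rfl huv
  | cons h q =>
    rw [SimpleGraph.Walk.edges_cons, List.map_cons, List.sum_cons]
    have h1 := hw _ ((SimpleGraph.mem_edgeSet G).mpr h)
    have h2 := wt_nonneg G w hw q
    linarith

/-- A walk of minimal weighted length between two vertices of a finite connected graph. -/
private lemma exists_min_walk {V : Type*} [Fintype V] (G : SimpleGraph V) (w : Sym2 V → ℝ)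
    (hw : ∀ e ∈ G.edgeSet, 0 < w e) (hG : G.Connected) (u v : V) :
    ∃ p0 : G.Walk u v, ∀ p : G.Walk u v, (p0.edges.map w).sum ≤ (p.edges.map w).sum := by
  classical
  obtain ⟨q0⟩ := hG.preconnected u v
  have hne : (Finset.univ : Finset (G.Path u v)).Nonempty :=
    ⟨⟨q0.bypass, q0.bypass_isPath⟩, Finset.mem_univ _⟩
  obtain ⟨P, -, hP⟩ := Finset.exists_min_image Finset.univ
    (fun P : G.Path u v => ((P : G.Walk u v).edges.map w).sum) hne
  refine ⟨(P : G.Walk u v), fun p => ?_⟩
  have h1 := hP ⟨p.bypass, p.bypass_isPath⟩ (Finset.mem_univ _)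
  exact h1.trans (wt_bypass_le G w hw p)

/-- If every edge is at least as long as the distance between its ends, the sum of the
distances along a walk is at most its weighted length. -/
private lemma darts_sum_le {V : Type*} (G : SimpleGraph V) (w : Sym2 V → ℝ) (D : V → V → ℝ)
    (hD : ∀ a b, G.Adj a b → D a b ≤ w s(a, b)) {u v : V} (p : G.Walk u v) :
    (p.darts.map fun e => D e.fst e.snd).sum ≤ (p.edges.map w).sum := by
  induction p with
  | nil => simp
  | cons h q ih =>
    rw [SimpleGraph.Walk.darts_cons, SimpleGraph.Walk.edges_cons, List.map_cons, List.map_cons,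
      List.sum_cons, List.sum_cons]
    exact add_le_add (hD _ _ h) ih

/-- A connected graph `G` with arbitrary positive edge lengths `w`, such that deleting a set
`A` of at most `k` vertices leaves a forest: the shortest-path metric embeds into `ℓ¹` with
distortion at most `k + 5`.  The shortest-path distance is expressed through walks: some
walk is at most as long as the `ℓ¹` distance, and the `ℓ¹` distance is at most `k + 5`
times the length of every walk. -/
theorem weighted_fvs_embedding {V : Type*} [Fintype V] (G : SimpleGraph V) (hG : G.Connected)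
    (w : Sym2 V → ℝ) (hw : ∀ e ∈ G.edgeSet, 0 < w e)
    (A : Finset V) (hacyc : (G.induce {x | x ∉ A}).IsAcyclic) (k : ℕ) (hk : A.card ≤ k) :
    ∃ (m : ℕ) (f : V → Fin m → ℝ), ∀ u v : V,
      (∃ p : G.Walk u v, (p.edges.map w).sum ≤ ∑ j, |f u j - f v j|) ∧
      (∀ p : G.Walk u v, ∑ j, |f u j - f v j| ≤ (k + 5) * (p.edges.map w).sum) := by
  classical
  choose p0 hp0 using fun u v => exists_min_walk G w hw hG u v
  have hd_self : ∀ u, ((p0 u u).edges.map w).sum = 0 := by
    intro u
    have h1 := hp0 u u SimpleGraph.Walk.nil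
    have h2 := wt_nonneg G w hw (p0 u u)
    rw [SimpleGraph.Walk.edges_nil, List.map_nil, List.sum_nil] at h1
    exact le_antisymm h1 h2
  have hd_le : ∀ u v, ((p0 u v).edges.map w).sum ≤ ((p0 v u).edges.map w).sum := by
    intro u v
    have h1 := hp0 u v (p0 v u).reverse
    rw [SimpleGraph.Walk.edges_reverse, List.map_reverse, List.sum_reverse] at h1
    exact h1
  have hd_comm : ∀ u v, ((p0 u v).edges.map w).sum = ((p0 v u).edges.map w).sum :=
    fun u v => le_antisymm (hd_le u v) (hd_le v u)
  have hd_tri : ∀ u v x, ((p0 u x).edges.map w).sum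
      ≤ ((p0 u v).edges.map w).sum + ((p0 v x).edges.map w).sum := by
    intro u v x
    have h1 := hp0 u x ((p0 u v).append (p0 v x))
    rw [SimpleGraph.Walk.edges_append, List.map_append, List.sum_append] at h1
    exact h1
  have hd_eq : ∀ u v, ((p0 u v).edges.map w).sum = 0 → u = v := by
    intro u v h
    by_contra hne
    have h1 := wt_pos G w hw (p0 u v) hne
    linarith
  have hd_adj : ∀ a b, G.Adj a b → ((p0 a b).edges.map w).sum ≤ w s(a, b) := by
    intro a b hab
    have h1 := hp0 a b (SimpleGraph.Walk.cons hab SimpleGraph.Walk.nil)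
    rw [SimpleGraph.Walk.edges_cons, SimpleGraph.Walk.edges_nil, List.map_cons, List.map_nil,
      List.sum_cons, List.sum_nil, add_zero] at h1
    exact h1
  let _ : MetricSpace V :=
    { dist := fun u v => ((p0 u v).edges.map w).sum
      dist_self := hd_self
      dist_comm := hd_comm
      dist_triangle := hd_tri
      eq_of_dist_eq_zero := fun {u v} h => hd_eq u v h }
  have hdist : ∀ u v : V, dist u v = ((p0 u v).edges.map w).sum := fun u v => rfl
  have hgeo : ∀ u v : V, ∃ p : G.Walk u v,
      (p.darts.map fun e => dist e.fst e.snd).sum = dist u v := by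
    intro u v
    refine ⟨p0 u v, le_antisymm ?_ (walk_len_ge G (p0 u v))⟩
    rw [hdist u v]
    exact darts_sum_le G w (fun a b => dist a b) (fun a b hab => hd_adj a b hab) (p0 u v)
  obtain ⟨m, f, hf⟩ := bounded_fvs_embedding G hgeo A hacyc k hk
  refine ⟨m, f, fun u v => ⟨⟨p0 u v, ?_⟩, fun p => ?_⟩⟩
  · have h1 := (hf u v).1
    rw [hdist u v] at h1
    exact h1
  · have h1 := (hf u v).2
    rw [hdist u v] at h1
    have hk0 : (0 : ℝ) ≤ (k : ℝ) + 5 := by positivity
    exact h1.trans (mul_le_mul_of_nonneg_left (hp0 u v p) hk0)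

end Vale.Agent.Lib.P235
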